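import Vale.Agent.P159.T1.S.H634.Unb

/-!
Row S.CL of plan 118: `t - v` is small near the complement of `R`, at all scales.
-/

open Filter Topology

namespace Vale.Agent.P159.T1.S.H634

open Vale.Agent.P159.T1.D
open Vale.Agent.P159.T1.H775 (Nbr Esc InBox stp lap)

theorem nm_lip (f g : Z2) : nm f ≤ nm g + dst f g := by
  simp only [nm, dst]
  omega

theorem dst_mir (r : ℕ) (f g : Z2) : dst (mir r f) (mir r g) = dst f g := by
  simp only [mir, dst]
  omega

/-- `ns` is `1`-Lipschitz -/
theorem ns_lip (r : ℕ) (f g : Z2) : ns r f ≤ ns r g + dst f g := by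
  have h1 := nm_lip f g
  have h2 := nm_lip (mir r f) (mir r g)
  rw [dst_mir] at h2
  simp only [ns]
  omega

theorem dst_comm (f g : Z2) : dst f g = dst g f := by
  simp only [dst]
  omega

theorem dst_tri (f g h : Z2) : dst f h ≤ dst f g + dst g h := by
  simp only [dst]
  omega

/-- `1`-step -/
theorem dst_stp (d : Bool) (f : Z2) : dst f (stp d f) ≤ 1 := by
  cases d <;> simp [dst, stp]

/-- the increments of a tent at all faces -/
theorem incr_all {K c1 : ℝ} {n0 r : ℕ} {t : Z2 → ℝ} (hK : 0 ≤ K) (ht : Tent K c1 n0 r t)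
    (hn : 0 < n0) (h : Z2) (d : Bool) : |t (stp d h) - t h| ≤ 2 * K / n0 := by
  have hn' : (0 : ℝ) < n0 := by exact_mod_cast hn
  have hg := ht.grad h d
  by_cases h1 : n0 ≤ 2 * (1 + ns r h)
  · have h1' : (n0 : ℝ) ≤ 2 * (1 + ns r h) := by exact_mod_cast h1
    rw [le_div_iff₀ hn']
    have := mul_le_mul_of_nonneg_left h1' (abs_nonneg (t (stp d h) - t h))
    nlinarith
  · have h2 : 2 * ns r h ≤ n0 := by omega
    have h3 : 2 * ns r (stp d h) ≤ n0 := by
      have h4 := ns_lip r (stp d h) h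
      have h5 := dst_stp d h
      rw [dst_comm] at h5
      omega
    rw [ht.near h h2, ht.near _ h3, sub_zero, abs_zero]
    positivity

/-- the increments of a tent away from the tips -/
theorem incr_far {K c1 : ℝ} {n0 r : ℕ} {t : Z2 → ℝ} (ht : Tent K c1 n0 r t)
    {m : ℕ} (hm : 0 < m) {h : Z2} (hh : m ≤ 2 * ns r h) (d : Bool) :
    |t (stp d h) - t h| ≤ 2 * K / m := by
  have hm' : (0 : ℝ) < m := by exact_mod_cast hm
  have hh' : (m : ℝ) ≤ 2 * ns r h := by exact_mod_cast hh
  have hg := ht.grad h d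
  rw [le_div_iff₀ hm']
  have h0 := abs_nonneg (t (stp d h) - t h)
  have := mul_le_mul_of_nonneg_left hh' h0
  nlinarith

/-- all rings about a face off `R` meet the complement of `R` -/
theorem rings_of_unb {R : Finset Z2} (hU : Unb R) {g : Z2} (hg : g ∉ R) (n : ℕ) :
    ∃ h, h ∉ R ∧ dst g h = n := by
  obtain ⟨z, hz1, -, hz2⟩ := hU g hg n
  have hp : Relation.ReflTransGen (fun f g => St f g ∧ g ∉ R) g z := by
    have hm : ∀ a b : Z2, (Nbr a b ∧ b ∉ R) → (St a b ∧ b ∉ R) :=
      fun a b hab => ⟨St_of_Nbr hab.1, hab.2⟩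
    exact Relation.ReflTransGen.mono hm _ _ hz2
  refine ring_of_path hg hp n ?_
  rw [inBox_iff] at hz1
  omega

theorem Hm_of_lap {v : Z2 → ℝ} {f : Z2} (h : lap v f = 0) : Hm v f := by
  simp only [lap] at h
  simp only [Hm]
  linarith

theorem dst_cast_le {f g : Z2} {x : ℝ} (h1 : |((g.1 - f.1 : ℤ) : ℝ)| ≤ x)
    (h2 : |((g.2 - f.2 : ℤ) : ℝ)| ≤ x) : (dst g f : ℝ) ≤ x := by
  have e : ∀ a : ℤ, ((a.natAbs : ℕ) : ℝ) = |(a : ℝ)| := fun a => by
    rw [Nat.cast_natAbs, Int.cast_abs]
  simp only [dst, Nat.cast_max, e]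
  exact max_le h1 h2

/-- **row S.CL** -/
theorem stmtCL : StmtCL := by
  intro K ω hK hω
  obtain ⟨δ, hδ, m0, H⟩ := cl_pack K (2 * K) ω hω
  refine ⟨min δ (min (1 / 4) (1 / (m0 + 2))), by positivity, ?_⟩
  intro c1 n0 r R t v hc1 _ ht hU hv f g hg h1 h2
  obtain ⟨m, hm⟩ : ∃ m : ℕ, m = max n0 (ns r f) := ⟨_, rfl⟩
  have hm' : max (n0 : ℝ) (ns r f) = m := by rw [hm, Nat.cast_max]
  rw [hm'] at h1 h2
  have hd := dst_cast_le h1 h2
  have hm0 : (0 : ℝ) ≤ m := by positivity
  rcases lt_or_ge m (m0 + 1) with hlt | hge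
  · -- small scales : `f = g`
    have hlt' : (m : ℝ) < m0 + 1 := by exact_mod_cast hlt
    have h3 : (dst g f : ℝ) < 1 := by
      have h4 : min δ (min (1 / 4) (1 / ((m0 : ℝ) + 2))) ≤ 1 / (m0 + 2) :=
        (min_le_right _ _).trans (min_le_right _ _)
      have h5 := mul_le_mul_of_nonneg_right h4 hm0
      have h6 : 1 / ((m0 : ℝ) + 2) * m < 1 := by
        rw [one_div, inv_mul_lt_iff₀ (by positivity)]
        linarith
      linarith
    have h4 : dst g f = 0 := by
      have : dst g f < 1 := by exact_mod_cast h3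
      omega
    have h5 : g = f := by
      simp only [dst] at h4
      ext <;> omega
    subst h5
    rw [hv.1 g hg, sub_self, abs_zero]
    exact hω.le
  · have hmpos : 0 < m := by omega
    have h3 : (dst g f : ℝ) ≤ δ * m :=
      hd.trans (mul_le_mul_of_nonneg_right (min_le_left _ _) hm0)
    have h4 : dst g f ≤ m / 4 := by
      have h5 : (dst g f : ℝ) ≤ 1 / 4 * m :=
        hd.trans (mul_le_mul_of_nonneg_right ((min_le_right _ _).trans (min_le_left _ _)) hm0)
      have h6 : ((4 * dst g f : ℕ) : ℝ) ≤ (m : ℝ) := by push_cast; linarith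
      have h7 : 4 * dst g f ≤ m := by exact_mod_cast h6
      omega
    have hincr : ∀ h, dst g h ≤ m / 4 → ∀ d, |t (stp d h) - t h| ≤ 2 * K / m := by
      intro h hh d
      rcases le_total (ns r f) n0 with h5 | h5
      · have h6 : m = n0 := by omega
        subst h6
        exact incr_all hK.le ht hmpos h d
      · have h6 : m = ns r f := by omega
        refine incr_far ht hmpos ?_ d
        have h7 := ns_lip r f h
        have h8 := dst_tri f g h
        rw [dst_comm f g] at h8
        omega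
    have hcl := H m (by omega) R v t hv.1 (fun f hf => Hm_of_lap (hv.2 f hf)) g
      (fun n _ => rings_of_unb hU hg n)
      (fun g => by rw [abs_of_nonneg (ht.nonneg g)]; exact ht.le g)
      (fun h hh => ⟨by simpa [D1, stp] using hincr h hh false, by
        simpa [D2, stp] using hincr h hh true⟩) f h3
    rw [abs_sub_comm]
    exact hcl

end Vale.Agent.P159.T1.S.H634
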