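import Vale.Agent.P159.T1.S.H634.CLPack

/-!
The complement of `SB R r \ N` is connected and unbounded if `N` is attached to the boundary.
-/

namespace Vale.Agent.P159.T1.S.H634

open Vale.Agent.P159.T1.D

theorem mem_SB {R r : ℕ} {f : Z2} : f ∈ SB R r ↔ -(R : ℤ) ≤ f.1 ∧ f.1 < r + R ∧ -(R : ℤ) ≤ f.2 ∧
    f.2 < R ∧ ¬ (f.2 = -1 ∧ (f.1 < 0 ∨ (r : ℤ) ≤ f.1)) := by
  simp only [SB, Finset.mem_filter, Finset.mem_product, Finset.mem_Ico]
  tauto

/-- bonds join neighbouring faces -/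
theorem St_of_bond {e : Bnd} {f g : Z2} (h : (rt e = f ∧ lf e = g) ∨ (rt e = g ∧ lf e = f)) :
    St f g := by
  obtain ⟨⟨x, y⟩, b⟩ := e
  cases b
  · rcases h with ⟨rfl, rfl⟩ | ⟨rfl, rfl⟩
    · refine Or.inr (Or.inr (Or.inl ?_)); simp [rt, lf]
    · refine Or.inr (Or.inr (Or.inr ?_)); simp [rt, lf]
  · rcases h with ⟨rfl, rfl⟩ | ⟨rfl, rfl⟩
    · refine Or.inr (Or.inl ?_); simp [rt, lf]
    · refine Or.inl ?_; simp [rt, lf]

theorem St_of_adj {U : Finset Z2} {X : Set Z2} {f g : Z2} (h : adj U X f g) : St f g := by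
  obtain ⟨-, -, e, he⟩ := h
  exact St_of_bond he

/-- a straight ray off `Rg` -/
theorem ray {Rg : Finset Z2} {g : Z2} (dx dy : ℤ) (hd : ∀ f : Z2, St f (f.1 + dx, f.2 + dy))
    (h : ∀ k : ℕ, ((g.1 + k * dx, g.2 + k * dy) : Z2) ∉ Rg) (L : ℕ) :
    Relation.ReflTransGen (fun f g => St f g ∧ g ∉ Rg) g (g.1 + L * dx, g.2 + L * dy) := by
  induction L with
  | zero =>
    simp only [Nat.cast_zero, zero_mul, add_zero]
    exact Relation.ReflTransGen.refl
  | succ L ih =>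
    refine ih.tail ⟨?_, h _⟩
    have := hd (g.1 + L * dx, g.2 + L * dy)
    have e : ((g.1 + ((L + 1 : ℕ) : ℤ) * dx, g.2 + ((L + 1 : ℕ) : ℤ) * dy) : Z2) =
        (g.1 + L * dx + dx, g.2 + L * dy + dy) := by
      ext <;> simp only <;> push_cast <;> ring
    rw [e]
    exact this

theorem St_left (f : Z2) : St f (f.1 + -1, f.2 + 0) := by
  refine Or.inr (Or.inl ?_); rw [add_zero]; rfl

theorem St_right (f : Z2) : St f (f.1 + 1, f.2 + 0) := by
  refine Or.inl ?_; rw [add_zero]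

theorem St_up (f : Z2) : St f (f.1 + 0, f.2 + 1) := by
  refine Or.inr (Or.inr (Or.inl ?_)); rw [add_zero]

theorem St_down (f : Z2) : St f (f.1 + 0, f.2 + -1) := by
  refine Or.inr (Or.inr (Or.inr ?_)); rw [add_zero]; rfl

/-- from a face outside of the slit box one can go straight to infinity -/
theorem far_of_not_SB {R r : ℕ} {g : Z2} (hg : g ∉ SB R r) (z0 : Z2) (n : ℕ) {Rg : Finset Z2}
    (hR : Rg ⊆ SB R r) :
    ∃ z1, Relation.ReflTransGen (fun f g => St f g ∧ g ∉ Rg) g z1 ∧ n ≤ dst z0 z1 := by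
  have key : ∀ dx dy : ℤ, (∀ f : Z2, St f (f.1 + dx, f.2 + dy)) →
      (∀ k : ℕ, ((g.1 + k * dx, g.2 + k * dy) : Z2) ∉ SB R r) →
      (∃ L : ℕ, n ≤ dst z0 (g.1 + L * dx, g.2 + L * dy)) →
      ∃ z1, Relation.ReflTransGen (fun f g => St f g ∧ g ∉ Rg) g z1 ∧ n ≤ dst z0 z1 := by
    intro dx dy hd h ⟨L, hL⟩
    exact ⟨_, ray dx dy hd (fun k hk => h k (hR hk)) L, hL⟩
  rw [mem_SB] at hg
  have hcase : (g.1 < -(R : ℤ) ∨ (g.2 = -1 ∧ g.1 < 0)) ∨
      ((r : ℤ) + R ≤ g.1 ∨ (g.2 = -1 ∧ (r : ℤ) ≤ g.1)) ∨ g.2 < -(R : ℤ) ∨ (R : ℤ) ≤ g.2 := by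
    by_contra hcon
    apply hg
    omega
  rcases hcase with h | h | h | h
  · refine key (-1) 0 St_left (fun k => ?_) ⟨n + (z0.1 - g.1).natAbs, ?_⟩
    · rw [mem_SB]
      simp only
      omega
    · simp only [dst]
      omega
  · refine key 1 0 St_right (fun k => ?_) ⟨n + (z0.1 - g.1).natAbs, ?_⟩
    · rw [mem_SB]
      simp only
      omega
    · simp only [dst]
      omega
  · refine key 0 (-1) St_down (fun k => ?_) ⟨n + (z0.2 - g.2).natAbs, ?_⟩
    · rw [mem_SB]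
      simp only
      omega
    · simp only [dst]
      omega
  · refine key 0 1 St_up (fun k => ?_) ⟨n + (z0.2 - g.2).natAbs, ?_⟩
    · rw [mem_SB]
      simp only
      omega
    · simp only [dst]
      omega

/-- `N` is attached to the boundary: every face of `N` is joined inside `N` to a face with a
side on the boundary -/
def Att (U : Finset Z2) (N : Set Z2) : Prop :=
  ∀ f ∈ N, f ∈ U → ∃ g, Relation.ReflTransGen (adj U N) f g ∧ g ∈ N ∧ g ∈ U ∧
    ∃ e ∈ sides g, lf e ∉ U ∨ rt e ∉ U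

/-- the sides of a face bound the face -/
theorem side_face {g : Z2} {e : Bnd} (h : e ∈ sides g) : lf e = g ∨ rt e = g := by
  simp only [sides, Finset.mem_insert, Finset.mem_singleton] at h
  rcases h with rfl | rfl | rfl | rfl
  · left; simp [lf]
  · right; simp [rt]
  · right; simp [rt]
  · left; simp [lf]

/-- **all rings about every face off `SB R r \ N` meet the complement** -/
theorem rings {R r : ℕ} {N : Set Z2} (hN : Att (SB R r) N) {Rg : Finset Z2}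
    (hRg : ∀ f, f ∈ Rg ↔ f ∈ SB R r ∧ f ∉ N) {z0 : Z2} (hz0 : z0 ∉ Rg) (n : ℕ) :
    ∃ g, g ∉ Rg ∧ dst z0 g = n := by
  have hsub : Rg ⊆ SB R r := fun f hf => ((hRg f).1 hf).1
  suffices h : ∃ z1, Relation.ReflTransGen (fun f g => St f g ∧ g ∉ Rg) z0 z1 ∧
      n ≤ dst z0 z1 by
    obtain ⟨z1, h1, h2⟩ := h
    exact ring_of_path hz0 h1 n h2
  by_cases hzU : z0 ∈ SB R r
  · have hzN : z0 ∈ N := by
      by_contra h
      exact hz0 ((hRg z0).2 ⟨hzU, h⟩)
    obtain ⟨g, hg1, hg2, hg3, e, he1, he2⟩ := hN z0 hzN hzU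
    -- the outer neighbour
    obtain ⟨g', hg', hst⟩ : ∃ g', g' ∉ SB R r ∧ St g g' := by
      rcases side_face he1 with h | h
      · rcases he2 with h2 | h2
        · exact absurd (h ▸ hg3) h2
        · exact ⟨rt e, h2, St_of_bond (e := e) (Or.inr ⟨rfl, h⟩)⟩
      · rcases he2 with h2 | h2
        · exact ⟨lf e, h2, St_of_bond (e := e) (Or.inl ⟨h, rfl⟩)⟩
        · exact absurd (h ▸ hg3) h2
    obtain ⟨z1, hz1, hn⟩ := far_of_not_SB hg' z0 n hsub
    refine ⟨z1, ?_, hn⟩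
    have hpath : Relation.ReflTransGen (fun f g => St f g ∧ g ∉ Rg) z0 g := by
      have hm : ∀ a b, adj (SB R r) N a b → (fun f g => St f g ∧ g ∉ Rg) a b :=
        fun a b hab => ⟨St_of_adj hab, fun hb => ((hRg b).1 hb).2 hab.2.1.2⟩
      exact Relation.ReflTransGen.mono hm _ _ hg1
    exact (hpath.tail ⟨hst, fun h => hg' (hsub h)⟩).trans hz1
  · exact far_of_not_SB hzU z0 n hsub

end Vale.Agent.P159.T1.S.H634
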