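import Vale.Agent.P159.T1.S.Stmts
import Vale.Agent.P159.T1.S.H634.Conn

/-!
Row S.UNB of plan 118: the complement of `SB R r` without an explored set is connected to infinity.
-/

namespace Vale.Agent.P159.T1.S.H634

open Vale.Agent.P159.T1.D
open Vale.Agent.P159.T1.H775 (Nbr Esc InBox)

theorem Nbr_of_St {f g : Z2} (h : St f g) : Nbr f g := by
  obtain ⟨x, y⟩ := f
  rcases h with rfl | rfl | rfl | rfl
  · exact ⟨((x + 1, y), true), Or.inr (by simp [rt, lf])⟩
  · exact ⟨((x, y), true), Or.inl (by simp [rt, lf])⟩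
  · exact ⟨((x, y + 1), false), Or.inl (by simp [rt, lf])⟩
  · exact ⟨((x, y), false), Or.inr (by simp [rt, lf])⟩

theorem St_of_Nbr {f g : Z2} (h : Nbr f g) : St f g := by
  obtain ⟨e, he⟩ := h
  exact St_of_bond he

theorem inBox_iff {f p : Z2} {k : ℕ} : InBox f k p ↔ dst f p ≤ k := by
  simp only [InBox, dst, Int.abs_eq_natAbs]
  omega

/-- a path off `Rg` from every face off `Rg` -/
theorem escape {R r : ℕ} {N : Set Z2} (hN : Att (SB R r) N) {Rg : Finset Z2}
    (hRg : ∀ f, f ∈ Rg ↔ f ∈ SB R r ∧ f ∉ N) {z0 : Z2} (hz0 : z0 ∉ Rg) (n : ℕ) :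
    ∃ z1, Relation.ReflTransGen (fun f g => St f g ∧ g ∉ Rg) z0 z1 ∧ n ≤ dst z0 z1 := by
  have hsub : Rg ⊆ SB R r := fun f hf => ((hRg f).1 hf).1
  by_cases hzU : z0 ∈ SB R r
  · have hzN : z0 ∈ N := by
      by_contra h
      exact hz0 ((hRg z0).2 ⟨hzU, h⟩)
    obtain ⟨g, hg1, hg2, hg3, e, he1, he2⟩ := hN z0 hzN hzU
    -- the outer neighbour
    obtain ⟨g', hg', hst⟩ : ∃ g', g' ∉ SB R r ∧ St g g' := by
      rcases side_face he1 with h | h
      · rcases he2 with h2 | h2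
        · exact absurd (h ▸ hg3) h2
        · exact ⟨rt e, h2, St_of_bond (e := e) (Or.inr ⟨rfl, h⟩)⟩
      · rcases he2 with h2 | h2
        · exact ⟨lf e, h2, St_of_bond (e := e) (Or.inl ⟨h, rfl⟩)⟩
        · exact absurd (h ▸ hg3) h2
    obtain ⟨z1, hz1, hn⟩ := far_of_not_SB hg' z0 n hsub
    refine ⟨z1, ?_, hn⟩
    have hpath : Relation.ReflTransGen (fun f g => St f g ∧ g ∉ Rg) z0 g := by
      have hm : ∀ a b, adj (SB R r) N a b → (fun f g => St f g ∧ g ∉ Rg) a b :=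
        fun a b hab => ⟨St_of_adj hab, fun hb => ((hRg b).1 hb).2 hab.2.1.2⟩
      exact Relation.ReflTransGen.mono hm _ _ hg1
    exact (hpath.tail ⟨hst, fun h => hg' (hsub h)⟩).trans hz1
  · exact far_of_not_SB hzU z0 n hsub

theorem adj_symm {U : Finset Z2} {X : Set Z2} {f g : Z2} (h : adj U X f g) : adj U X g f := by
  obtain ⟨h1, h2, e, he⟩ := h
  exact ⟨h2, h1, e, he.symm⟩

theorem rev_path {U : Finset Z2} {X : Set Z2} {a b : Z2}
    (h : Relation.ReflTransGen (adj U X) a b) : Relation.ReflTransGen (adj U X) b a := by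
  induction h with
  | refl => exact Relation.ReflTransGen.refl
  | tail _ hbc ih => exact Relation.ReflTransGen.head (adj_symm hbc) ih

/-- an explored set is attached to the boundary -/
theorem att_of_expl {U : Finset Z2} {T : Set Z2} {N : Finset Z2} (h : Expl U T N) :
    Att U (N : Set Z2) := by
  intro f hf _
  obtain ⟨a, ha, b, hb, hab, hp⟩ := h.2.2 f (by simpa using hf)
  rw [Set.mem_singleton_iff] at hb
  subst hb
  refine ⟨a, ?_, hab.2, hab.1, ?_⟩
  · exact rev_path hp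
  · obtain ⟨e, he1, -, he2⟩ := ha
    exact ⟨e, he1, he2⟩

/-- S.UNB -/
theorem unb {R r : ℕ} {T : Set Z2} {N : Finset Z2} (h : Expl (SB R r) T N) :
    Unb (SB R r \ N) := by
  intro a ha m
  obtain ⟨z, hz, hm⟩ := escape (att_of_expl h) (Rg := SB R r \ N)
    (fun f => by rw [Finset.mem_sdiff, Finset.mem_coe]) ha (m + 1)
  refine ⟨z, ?_, ha, ?_⟩
  · rw [inBox_iff]; omega
  · have hm : ∀ a b : Z2, (St a b ∧ b ∉ SB R r \ N) → (Nbr a b ∧ b ∉ SB R r \ N) :=
      fun a b hab => ⟨Nbr_of_St hab.1, hab.2⟩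
    exact Relation.ReflTransGen.mono hm _ _ hz

/-- **row S.UNB** -/
theorem stmtUnb : StmtUnb := fun _ _ _ _ _ _ h => unb h

end Vale.Agent.P159.T1.S.H634
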