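import Vale.Agent.P159.T1.D.Defs
import Mathlib.Algebra.Order.Chebyshev

/-!
Courant–Lebesgue on the lattice of faces (row S.CL of plan 118 of P159): a discrete harmonic
function with bounded energy near a face `z0` of a connected set, on which it takes given boundary
values, is close to its boundary value near `z0`.
-/

open Filter Topology

namespace Vale.Agent.P159.T1.S.H634

open Vale.Agent.P159.T1.D

/-- sup distance -/
def dst (f g : Z2) : ℕ := max (f.1 - g.1).natAbs (f.2 - g.2).natAbs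

/-- discrete harmonic at `f` -/
def Hm (v : Z2 → ℝ) (f : Z2) : Prop :=
  4 * v f = v (f.1 + 1, f.2) + v (f.1 - 1, f.2) + v (f.1, f.2 + 1) + v (f.1, f.2 - 1)

/-- horizontal increment -/
def D1 (v : Z2 → ℝ) (g : Z2) : ℝ := v (g.1 + 1, g.2) - v g

/-- vertical increment -/
def D2 (v : Z2 → ℝ) (g : Z2) : ℝ := v (g.1, g.2 + 1) - v g

/-- the energy density at `g` -/
def ed (v : Z2 → ℝ) (g : Z2) : ℝ := D1 v g ^ 2 + D2 v g ^ 2

/-- the box of radius `n` about `z0` -/
noncomputable def bx (z0 : Z2) (n : ℕ) : Finset Z2 :=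
  Finset.Icc (z0.1 - n) (z0.1 + n) ×ˢ Finset.Icc (z0.2 - n) (z0.2 + n)

/-- the ring of radius `n` about `z0` -/
noncomputable def ring (z0 : Z2) (n : ℕ) : Finset Z2 := (bx z0 n).filter fun g => dst z0 g = n

theorem mem_bx {z0 : Z2} {n : ℕ} {g : Z2} : g ∈ bx z0 n ↔ dst z0 g ≤ n := by
  simp only [bx, Finset.mem_product, Finset.mem_Icc, dst]
  omega

theorem mem_ring {z0 : Z2} {n : ℕ} {g : Z2} : g ∈ ring z0 n ↔ dst z0 g = n := by
  rw [ring, Finset.mem_filter, mem_bx]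
  exact ⟨fun h => h.2, fun h => ⟨h.le, h⟩⟩

theorem dst_self (f : Z2) : dst f f = 0 := by simp [dst]

theorem ed_nonneg (v : Z2 → ℝ) (g : Z2) : 0 ≤ ed v g := add_nonneg (sq_nonneg _) (sq_nonneg _)

/-! ### the maximum principle -/

/-- maximum principle on a finite set -/
theorem max_principle {S : Finset Z2} {v : Z2 → ℝ} {M : ℝ} (hH : ∀ f ∈ S, Hm v f)
    (hM : ∀ f ∈ S, ∀ g, (g = (f.1 + 1, f.2) ∨ g = (f.1 - 1, f.2) ∨ g = (f.1, f.2 + 1) ∨
      g = (f.1, f.2 - 1)) → g ∉ S → v g ≤ M) : ∀ f ∈ S, v f ≤ M := by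
  by_contra hcon
  push Not at hcon
  obtain ⟨f0, hf0, hf0M⟩ := hcon
  obtain ⟨f, hf, hmax⟩ := S.exists_max_image (fun f => toLex (v f, f.1)) ⟨f0, hf0⟩
  have hle : ∀ g ∈ S, v g < v f ∨ (v g = v f ∧ g.1 ≤ f.1) := by
    intro g hg
    have := hmax g hg
    rw [Prod.Lex.toLex_le_toLex] at this
    exact this
  have hvf : M < v f := by
    rcases hle f0 hf0 with h | h
    · linarith
    · linarith [h.1]
  have hnb : ∀ g, (g = (f.1 + 1, f.2) ∨ g = (f.1 - 1, f.2) ∨ g = (f.1, f.2 + 1) ∨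
      g = (f.1, f.2 - 1)) → v g ≤ v f := by
    intro g hg
    by_cases hgS : g ∈ S
    · rcases hle g hgS with h | h
      · exact h.le
      · exact h.1.le
    · exact (hM f hf g hg hgS).trans hvf.le
  have h1 := hnb _ (Or.inl rfl)
  have h2 := hnb _ (Or.inr (Or.inl rfl))
  have h3 := hnb _ (Or.inr (Or.inr (Or.inl rfl)))
  have h4 := hnb _ (Or.inr (Or.inr (Or.inr rfl)))
  have hh := hH f hf
  unfold Hm at hh
  have e1 : v (f.1 + 1, f.2) = v f := by linarith
  by_cases hgS : ((f.1 + 1, f.2) : Z2) ∈ S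
  · rcases hle _ hgS with h | h
    · linarith
    · have := h.2
      simp only at this
      omega
  · have := hM f hf _ (Or.inl rfl) hgS
    linarith

theorem max_principle_abs {S : Finset Z2} {v : Z2 → ℝ} {M c : ℝ} (hH : ∀ f ∈ S, Hm v f)
    (hM : ∀ f ∈ S, ∀ g, (g = (f.1 + 1, f.2) ∨ g = (f.1 - 1, f.2) ∨ g = (f.1, f.2 + 1) ∨
      g = (f.1, f.2 - 1)) → g ∉ S → |v g - c| ≤ M) : ∀ f ∈ S, |v f - c| ≤ M := by
  intro f hf
  rw [abs_le]
  constructor
  · have h := max_principle (S := S) (v := fun g => c - v g) (M := M)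
      (fun f hf => by have := hH f hf; unfold Hm at this ⊢; linarith)
      (fun f hf g hg hgS => by have := (abs_le.1 (hM f hf g hg hgS)).1; linarith) f hf
    linarith
  · have h := max_principle (S := S) (v := fun g => v g - c) (M := M)
      (fun f hf => by have := hH f hf; unfold Hm at this ⊢; linarith)
      (fun f hf g hg hgS => (abs_le.1 (hM f hf g hg hgS)).2) f hf
    linarith

/-! ### oscillation on a ring -/

/-- total variation of a sequence -/
theorem tv_le (s : ℕ → ℝ) {i j n : ℕ} (hij : i ≤ j) (hj : j ≤ n) :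
    |s j - s i| ≤ ∑ k ∈ Finset.range n, |s (k + 1) - s k| := by
  have h1 := dist_le_Ico_sum_dist s hij
  rw [Real.dist_eq, abs_sub_comm] at h1
  refine h1.trans ?_
  have h2 : ∑ k ∈ Finset.Ico i j, dist (s k) (s (k + 1)) =
      ∑ k ∈ Finset.Ico i j, |s (k + 1) - s k| :=
    Finset.sum_congr rfl fun k _ => by rw [Real.dist_eq, abs_sub_comm]
  rw [h2]
  refine Finset.sum_le_sum_of_subset_of_nonneg ?_ fun _ _ _ => abs_nonneg _
  intro k hk
  rw [Finset.mem_Ico] at hk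
  rw [Finset.mem_range]
  omega

/-- variation along the upper or lower side -/
noncomputable def tvH (v : Z2 → ℝ) (z0 : Z2) (n : ℕ) (y : ℤ) : ℝ :=
  ∑ k ∈ Finset.range (2 * n), |D1 v (z0.1 - n + k, y)|

/-- variation along the left or right side -/
noncomputable def tvV (v : Z2 → ℝ) (z0 : Z2) (n : ℕ) (x : ℤ) : ℝ :=
  ∑ k ∈ Finset.range (2 * n), |D2 v (x, z0.2 - n + k)|

theorem tvH_nonneg (v : Z2 → ℝ) (z0 : Z2) (n : ℕ) (y : ℤ) : 0 ≤ tvH v z0 n y :=
  Finset.sum_nonneg fun _ _ => abs_nonneg _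

theorem tvV_nonneg (v : Z2 → ℝ) (z0 : Z2) (n : ℕ) (y : ℤ) : 0 ≤ tvV v z0 n y :=
  Finset.sum_nonneg fun _ _ => abs_nonneg _

theorem hor_le (v : Z2 → ℝ) (z0 : Z2) (n : ℕ) (y : ℤ) {x : ℤ} (h1 : z0.1 - n ≤ x)
    (h2 : x ≤ z0.1 + n) : |v (z0.1 + n, y) - v (x, y)| ≤ tvH v z0 n y := by
  have h := tv_le (fun k : ℕ => v (z0.1 - n + k, y)) (i := (x - (z0.1 - n)).toNat)
    (j := 2 * n) (n := 2 * n) (by omega) le_rfl
  have e1 : z0.1 - n + ((2 * n : ℕ) : ℤ) = z0.1 + n := by push_cast; ring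
  have e2 : z0.1 - n + (((x - (z0.1 - n)).toNat : ℕ) : ℤ) = x := by omega
  simp only [e1, e2] at h
  refine h.trans (le_of_eq (Finset.sum_congr rfl fun k _ => ?_))
  rw [D1]
  push_cast
  rw [add_assoc]

theorem ver_le (v : Z2 → ℝ) (z0 : Z2) (n : ℕ) (x : ℤ) {y : ℤ} (h1 : z0.2 - n ≤ y)
    (h2 : y ≤ z0.2 + n) : |v (x, z0.2 + n) - v (x, y)| ≤ tvV v z0 n x := by
  have h := tv_le (fun k : ℕ => v (x, z0.2 - n + k)) (i := (y - (z0.2 - n)).toNat)
    (j := 2 * n) (n := 2 * n) (by omega) le_rfl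
  have e1 : z0.2 - n + ((2 * n : ℕ) : ℤ) = z0.2 + n := by push_cast; ring
  have e2 : z0.2 - n + (((y - (z0.2 - n)).toNat : ℕ) : ℤ) = y := by omega
  simp only [e1, e2] at h
  refine h.trans (le_of_eq (Finset.sum_congr rfl fun k _ => ?_))
  rw [D2]
  push_cast
  rw [add_assoc]

/-- total variation of the ring -/
noncomputable def tot (v : Z2 → ℝ) (z0 : Z2) (n : ℕ) : ℝ :=
  tvH v z0 n (z0.2 + n) + tvH v z0 n (z0.2 - n) + tvV v z0 n (z0.1 + n) + tvV v z0 n (z0.1 - n)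

theorem ring_osc (v : Z2 → ℝ) {z0 : Z2} {n : ℕ} {g : Z2} (hg : dst z0 g = n) :
    |v (z0.1 + n, z0.2 + n) - v g| ≤ tot v z0 n := by
  obtain ⟨x, y⟩ := g
  have p1 := tvH_nonneg v z0 n (z0.2 + n)
  have p2 := tvH_nonneg v z0 n (z0.2 - n)
  have p3 := tvV_nonneg v z0 n (z0.1 + n)
  have p4 := tvV_nonneg v z0 n (z0.1 - n)
  simp only [dst] at hg
  have hb : z0.1 - n ≤ x ∧ x ≤ z0.1 + n ∧ z0.2 - n ≤ y ∧ y ≤ z0.2 + n := by omega
  obtain ⟨b1, b2, b3, b4⟩ := hb
  have hc : y = z0.2 + n ∨ y = z0.2 - n ∨ x = z0.1 + n ∨ x = z0.1 - n := by omega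
  unfold tot
  rcases hc with rfl | rfl | rfl | rfl
  · have := hor_le v z0 n (z0.2 + n) b1 b2
    linarith
  · have h1 := hor_le v z0 n (z0.2 - n) b1 b2
    have h2 := ver_le v z0 n (z0.1 + n) (y := z0.2 - n) le_rfl (by omega)
    have h3 := abs_sub_le (v (z0.1 + n, z0.2 + n)) (v (z0.1 + n, z0.2 - n)) (v (x, z0.2 - n))
    linarith
  · have := ver_le v z0 n (z0.1 + n) b3 b4
    linarith
  · have h1 := ver_le v z0 n (z0.1 - n) b3 b4
    have h2 := hor_le v z0 n (z0.2 + n) (x := z0.1 - n) le_rfl (by omega)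
    have h3 := abs_sub_le (v (z0.1 + n, z0.2 + n)) (v (z0.1 - n, z0.2 + n)) (v (z0.1 - n, y))
    linarith

/-! ### energy of a ring -/

theorem sum_side_le {F : Z2 → ℝ} (hF : ∀ g, 0 ≤ F g) {n : ℕ} (p : ℕ → Z2)
    (hp : ∀ i < 2 * n, ∀ j < 2 * n, p i = p j → i = j) (A : Finset Z2)
    (hA : ∀ i < 2 * n, p i ∈ A) : ∑ k ∈ Finset.range (2 * n), F (p k) ≤ ∑ g ∈ A, F g := by
  have h : ∑ k ∈ Finset.range (2 * n), F (p k) = ∑ g ∈ (Finset.range (2 * n)).image p, F g := by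
    rw [Finset.sum_image]
    intro i hi j hj hij
    rw [Finset.mem_coe, Finset.mem_range] at hi hj
    exact hp i hi j hj hij
  rw [h]
  refine Finset.sum_le_sum_of_subset_of_nonneg ?_ fun _ _ _ => hF _
  intro g hg
  rw [Finset.mem_image] at hg
  obtain ⟨k, hk, rfl⟩ := hg
  exact hA k (Finset.mem_range.1 hk)

/-- energy density splits over the four sides -/
theorem sides_le (v : Z2 → ℝ) (z0 : Z2) {n : ℕ} (hn : 1 ≤ n) :
    (∑ k ∈ Finset.range (2 * n), D1 v (z0.1 - n + k, z0.2 + n) ^ 2) +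
      (∑ k ∈ Finset.range (2 * n), D1 v (z0.1 - n + k, z0.2 - n) ^ 2) +
      (∑ k ∈ Finset.range (2 * n), D2 v (z0.1 + n, z0.2 - n + k) ^ 2) +
      (∑ k ∈ Finset.range (2 * n), D2 v (z0.1 - n, z0.2 - n + k) ^ 2) ≤
      ∑ g ∈ ring z0 n, ed v g := by
  have hsplit : ∑ g ∈ ring z0 n, ed v g =
      (∑ g ∈ ring z0 n, D1 v g ^ 2) + ∑ g ∈ ring z0 n, D2 v g ^ 2 := by
    rw [← Finset.sum_add_distrib]; rfl
  have hH : (∑ k ∈ Finset.range (2 * n), D1 v (z0.1 - n + k, z0.2 + n) ^ 2) +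
      (∑ k ∈ Finset.range (2 * n), D1 v (z0.1 - n + k, z0.2 - n) ^ 2) ≤
      ∑ g ∈ ring z0 n, D1 v g ^ 2 := by
    rw [← Finset.sum_filter_add_sum_filter_not (ring z0 n) (fun g => g.2 = z0.2 + n)
      (fun g => D1 v g ^ 2)]
    refine add_le_add ?_ ?_
    · refine sum_side_le (F := fun g => D1 v g ^ 2) (fun g => sq_nonneg _)
        (fun k : ℕ => ((z0.1 - n + k, z0.2 + n) : Z2)) ?_ _ ?_
      · intro i _ j _ h
        simp only [Prod.mk.injEq] at h
        omega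
      · intro i hi
        refine Finset.mem_filter.2 ⟨mem_ring.2 ?_, ?_⟩
        · simp only [dst]
          omega
        · rfl
    · refine sum_side_le (F := fun g => D1 v g ^ 2) (fun g => sq_nonneg _)
        (fun k : ℕ => ((z0.1 - n + k, z0.2 - n) : Z2)) ?_ _ ?_
      · intro i _ j _ h
        simp only [Prod.mk.injEq] at h
        omega
      · intro i hi
        refine Finset.mem_filter.2 ⟨mem_ring.2 ?_, ?_⟩
        · simp only [dst]
          omega
        · simp only; omega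
  have hV : (∑ k ∈ Finset.range (2 * n), D2 v (z0.1 + n, z0.2 - n + k) ^ 2) +
      (∑ k ∈ Finset.range (2 * n), D2 v (z0.1 - n, z0.2 - n + k) ^ 2) ≤
      ∑ g ∈ ring z0 n, D2 v g ^ 2 := by
    rw [← Finset.sum_filter_add_sum_filter_not (ring z0 n) (fun g => g.1 = z0.1 + n)
      (fun g => D2 v g ^ 2)]
    refine add_le_add ?_ ?_
    · refine sum_side_le (F := fun g => D2 v g ^ 2) (fun g => sq_nonneg _)
        (fun k : ℕ => ((z0.1 + n, z0.2 - n + k) : Z2)) ?_ _ ?_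
      · intro i _ j _ h
        simp only [Prod.mk.injEq] at h
        omega
      · intro i hi
        refine Finset.mem_filter.2 ⟨mem_ring.2 ?_, ?_⟩
        · simp only [dst]
          omega
        · rfl
    · refine sum_side_le (F := fun g => D2 v g ^ 2) (fun g => sq_nonneg _)
        (fun k : ℕ => ((z0.1 - n, z0.2 - n + k) : Z2)) ?_ _ ?_
      · intro i _ j _ h
        simp only [Prod.mk.injEq] at h
        omega
      · intro i hi
        refine Finset.mem_filter.2 ⟨mem_ring.2 ?_, ?_⟩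
        · simp only [dst]
          omega
        · simp only; omega
  rw [hsplit]
  linarith

theorem tv_sq (F : ℕ → ℝ) (m : ℕ) :
    (∑ k ∈ Finset.range m, |F k|) ^ 2 ≤ m * ∑ k ∈ Finset.range m, F k ^ 2 := by
  have h := sq_sum_le_card_mul_sum_sq (s := Finset.range m) (f := fun k => |F k|)
  simpa using h

/-- the square of the variation of the ring -/
theorem tot_sq (v : Z2 → ℝ) (z0 : Z2) {n : ℕ} (hn : 1 ≤ n) :
    tot v z0 n ^ 2 ≤ 8 * n * ∑ g ∈ ring z0 n, ed v g := by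
  have h1 := tv_sq (fun k => D1 v (z0.1 - n + k, z0.2 + n)) (2 * n)
  have h2 := tv_sq (fun k => D1 v (z0.1 - n + k, z0.2 - n)) (2 * n)
  have h3 := tv_sq (fun k => D2 v (z0.1 + n, z0.2 - n + k)) (2 * n)
  have h4 := tv_sq (fun k => D2 v (z0.1 - n, z0.2 - n + k)) (2 * n)
  have h5 := sides_le v z0 hn
  have hn0 : (0 : ℝ) ≤ n := Nat.cast_nonneg n
  have h6 : tot v z0 n ^ 2 ≤ 4 * (tvH v z0 n (z0.2 + n) ^ 2 + tvH v z0 n (z0.2 - n) ^ 2 +
      tvV v z0 n (z0.1 + n) ^ 2 + tvV v z0 n (z0.1 - n) ^ 2) := by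
    unfold tot
    generalize tvH v z0 n (z0.2 + n) = a
    generalize tvH v z0 n (z0.2 - n) = b
    generalize tvV v z0 n (z0.1 + n) = c
    generalize tvV v z0 n (z0.1 - n) = d
    nlinarith [sq_nonneg (a - b), sq_nonneg (a - c), sq_nonneg (a - d), sq_nonneg (b - c),
      sq_nonneg (b - d), sq_nonneg (c - d)]
  push_cast at h1 h2 h3 h4
  unfold tvH tvV at h6
  have h7 := mul_le_mul_of_nonneg_left h5 (show (0 : ℝ) ≤ 8 * n by positivity)
  nlinarith

/-- the harmonic sum -/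
theorem log_le_sum (a b : ℕ) (h : a ≤ b) :
    Real.log ((b + 1) / (a + 1)) ≤ ∑ n ∈ Finset.Ioc a b, 1 / (n : ℝ) := by
  induction b, h using Nat.le_induction with
  | base =>
    rw [div_self (by positivity)]
    simp
  | succ b hab ih =>
    have e : Finset.Ioc a (b + 1) = insert (b + 1) (Finset.Ioc a b) := by
      ext k
      simp only [Finset.mem_Ioc, Finset.mem_insert]
      omega
    rw [e, Finset.sum_insert (by simp)]
    have h1 : ((b + 1 : ℕ) : ℝ) + 1 = (b + 1) * (1 + 1 / ((b + 1 : ℕ) : ℝ)) := by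
      push_cast
      have : (b : ℝ) + 1 ≠ 0 := by positivity
      field_simp
    have h2 : (((b + 1 : ℕ) : ℝ) + 1) / (a + 1) =
        ((b + 1) / (a + 1)) * (1 + 1 / ((b + 1 : ℕ) : ℝ)) := by rw [h1]; ring
    have h3 : Real.log (1 + 1 / ((b + 1 : ℕ) : ℝ)) ≤ 1 / ((b + 1 : ℕ) : ℝ) := by
      have := Real.log_le_sub_one_of_pos (show (0 : ℝ) < 1 + 1 / ((b + 1 : ℕ) : ℝ) by positivity)
      linarith
    rw [h2, Real.log_mul (by positivity) (by positivity)]
    linarith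

/-- **choice of the ring** -/
theorem exists_ring (v : Z2 → ℝ) (z0 : Z2) {a b : ℕ} (hab : a < b) {E : ℝ}
    (hE : ∑ g ∈ bx z0 b, ed v g ≤ E) :
    ∃ n, a < n ∧ n ≤ b ∧ tot v z0 n ^ 2 ≤ 8 * E / Real.log ((b + 1) / (a + 1)) := by
  by_contra hcon
  push Not at hcon
  have hlog : 0 < Real.log (((b : ℝ) + 1) / (a + 1)) := by
    apply Real.log_pos
    rw [one_lt_div (by positivity)]
    have : (a : ℝ) < b := by exact_mod_cast hab
    linarith
  have hdisj : ∑ n ∈ Finset.Ioc a b, ∑ g ∈ ring z0 n, ed v g ≤ ∑ g ∈ bx z0 b, ed v g := by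
    rw [← Finset.sum_biUnion]
    · refine Finset.sum_le_sum_of_subset_of_nonneg ?_ fun _ _ _ => ed_nonneg _ _
      intro g hg
      rw [Finset.mem_biUnion] at hg
      obtain ⟨n, hn, hg⟩ := hg
      rw [mem_ring] at hg
      rw [Finset.mem_Ioc] at hn
      rw [mem_bx]
      omega
    · intro i _ j _ hij
      rw [Function.onFun, Finset.disjoint_left]
      intro g hg hg'
      rw [mem_ring] at hg hg'
      exact hij (hg.symm.trans hg')
  have hE0 : 0 ≤ E := (Finset.sum_nonneg fun _ _ => ed_nonneg _ _).trans hE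
  have hlow : ∑ n ∈ Finset.Ioc a b, (E / Real.log (((b : ℝ) + 1) / (a + 1))) * (1 / (n : ℝ)) <
      ∑ n ∈ Finset.Ioc a b, ∑ g ∈ ring z0 n, ed v g := by
    refine Finset.sum_lt_sum_of_nonempty ⟨b, Finset.mem_Ioc.2 ⟨hab, le_rfl⟩⟩ fun n hn => ?_
    rw [Finset.mem_Ioc] at hn
    have h1 := hcon n hn.1 hn.2
    have h2 := tot_sq v z0 (n := n) (by omega)
    have hn0 : (0 : ℝ) < n := by exact_mod_cast (by omega : 0 < n)
    have h3 : 8 * E / Real.log (((b : ℝ) + 1) / (a + 1)) < 8 * n * ∑ g ∈ ring z0 n, ed v g :=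
      h1.trans_le h2
    rw [mul_one_div, div_lt_iff₀ hn0]
    have e : 8 * E / Real.log (((b : ℝ) + 1) / (a + 1)) =
      8 * (E / Real.log (((b : ℝ) + 1) / (a + 1))) := by ring
    rw [e] at h3
    linarith
  rw [← Finset.mul_sum] at hlow
  have h4 := mul_le_mul_of_nonneg_left (log_le_sum a b hab.le)
    (div_nonneg hE0 hlog.le : 0 ≤ E / Real.log (((b : ℝ) + 1) / (a + 1)))
  rw [div_mul_cancel₀ _ hlog.ne'] at h4
  linarith

/-! ### Courant–Lebesgue -/

/-- **Courant–Lebesgue**: `v` is harmonic on `Rg`, equal to `t` off `Rg`; `z0 ∉ Rg` and every ring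
about `z0` of radius in `(a, b]` meets the complement of `Rg`. -/
theorem cl {Rg : Finset Z2} {v t : Z2 → ℝ} (hv : ∀ f, f ∉ Rg → v f = t f)
    (hH : ∀ f ∈ Rg, Hm v f) {z0 : Z2} {a b : ℕ} (hab : a < b)
    (hring : ∀ n, a < n → n ≤ b → ∃ g, g ∉ Rg ∧ dst z0 g = n) {w E : ℝ}
    (ht : ∀ g, dst z0 g ≤ b → |t g - t z0| ≤ w) (hE : ∑ g ∈ bx z0 b, ed v g ≤ E) :
    ∀ f, dst z0 f ≤ a → |v f - t z0| ≤
      w + 2 * Real.sqrt (8 * E / Real.log ((b + 1) / (a + 1))) := by
  obtain ⟨n, hn1, hn2, hn3⟩ := exists_ring v z0 hab hE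
  obtain ⟨g0, hg0, hg0n⟩ := hring n hn1 hn2
  have ht0 : 0 ≤ tot v z0 n := by
    unfold tot
    have p1 := tvH_nonneg v z0 n (z0.2 + n)
    have p2 := tvH_nonneg v z0 n (z0.2 - n)
    have p3 := tvV_nonneg v z0 n (z0.1 + n)
    have p4 := tvV_nonneg v z0 n (z0.1 - n)
    linarith
  have htot : tot v z0 n ≤ Real.sqrt (8 * E / Real.log ((b + 1) / (a + 1))) :=
    Real.le_sqrt_of_sq_le hn3
  have hw0 : 0 ≤ w := (abs_nonneg _).trans (ht z0 (by rw [dst_self]; omega))
  -- on the ring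
  have hon : ∀ g, dst z0 g = n → |v g - t z0| ≤ w + 2 * tot v z0 n := by
    intro g hg
    have h1 := ring_osc v hg
    have h2 := ring_osc v hg0n
    have h3 : v g0 = t g0 := hv g0 hg0
    have h4 := ht g0 (by omega)
    rw [abs_le] at *
    constructor <;> linarith [h1.1, h1.2, h2.1, h2.2, h4.1, h4.2]
  have hin : ∀ g, g ∉ Rg → dst z0 g ≤ n → |v g - t z0| ≤ w + 2 * tot v z0 n := by
    intro g hg hgn
    rw [hv g hg]
    have := ht g (by omega)
    linarith
  have hall : ∀ f, dst z0 f ≤ n → |v f - t z0| ≤ w + 2 * tot v z0 n := by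
    intro f hf
    by_cases hfR : f ∈ Rg
    · by_cases hfn : dst z0 f = n
      · exact hon f hfn
      · have h := max_principle_abs (S := Rg.filter fun g => dst z0 g < n) (v := v)
          (M := w + 2 * tot v z0 n) (c := t z0)
          (fun f hf => hH f (Finset.mem_filter.1 hf).1) ?_ f
          (Finset.mem_filter.2 ⟨hfR, by omega⟩)
        · exact h
        · intro f' hf' g hg hgS
          rw [Finset.mem_filter] at hf' hgS
          have hgn : dst z0 g ≤ n := by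
            have h5 := hf'.2
            simp only [dst] at h5 ⊢
            rcases hg with rfl | rfl | rfl | rfl <;> simp only <;> omega
          by_cases hgR : g ∈ Rg
          · exact hon g (by
              by_contra hne
              exact hgS ⟨hgR, by omega⟩)
          · exact hin g hgR hgn
    · exact hin f hfR hf
  intro f hf
  have := hall f (by omega)
  linarith

end Vale.Agent.P159.T1.S.H634
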