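import Vale.Agent.P159.T1.S.H634.Cacc

/-!
The packaged form of the Courant–Lebesgue row.
-/

open Filter Topology

namespace Vale.Agent.P159.T1.S.H634

open Vale.Agent.P159.T1.D

/-- a step to a neighbouring face -/
def St (f g : Z2) : Prop :=
  g = (f.1 + 1, f.2) ∨ g = (f.1 - 1, f.2) ∨ g = (f.1, f.2 + 1) ∨ g = (f.1, f.2 - 1)

theorem St.dst_le {z0 f g : Z2} (h : St f g) : dst z0 g ≤ dst z0 f + 1 := by
  simp only [dst]
  rcases h with rfl | rfl | rfl | rfl <;> simp only <;> omega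

/-- a path off `Rg` meets every ring -/
theorem ring_of_path {Rg : Finset Z2} {z0 z1 : Z2} (h0 : z0 ∉ Rg)
    (h : Relation.ReflTransGen (fun f g => St f g ∧ g ∉ Rg) z0 z1) :
    ∀ n ≤ dst z0 z1, ∃ g, g ∉ Rg ∧ dst z0 g = n := by
  induction h with
  | refl =>
    intro n hn
    rw [dst_self] at hn
    exact ⟨z0, h0, by rw [dst_self]; omega⟩
  | @tail f g hfg hst ih =>
    intro n hn
    rcases Nat.lt_or_ge (dst z0 f) n with h1 | h1
    · refine ⟨g, hst.2, ?_⟩
      have := hst.1.dst_le (z0 := z0)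
      omega
    · exact ih n h1

/-- values inside a finite harmonic region are bounded by the boundary values -/
theorem abs_le_of_bdry {Rg : Finset Z2} {v t : Z2 → ℝ} (hv : ∀ f, f ∉ Rg → v f = t f)
    (hH : ∀ f ∈ Rg, Hm v f) {M : ℝ} (ht : ∀ g, g ∉ Rg → |t g| ≤ M) (f : Z2) : |v f| ≤ M := by
  by_cases hf : f ∈ Rg
  · have h := max_principle_abs (S := Rg) (v := v) (M := M) (c := 0) hH
      (fun f _ g _ hg => by rw [hv g hg, sub_zero]; exact ht g hg) f hf
    simpa using h
  · rw [hv f hf]; exact ht f hf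

/-- a function with small increments varies little in the box -/
theorem incr_le {t : Z2 → ℝ} {z0 : Z2} {n : ℕ} {k : ℝ}
    (hk : ∀ g, dst z0 g ≤ n → |D1 t g| ≤ k ∧ |D2 t g| ≤ k) :
    ∀ g, dst z0 g ≤ n → |t g - t z0| ≤ 2 * k * dst z0 g := by
  have hk0 : 0 ≤ k := (abs_nonneg _).trans (hk z0 (by rw [dst_self]; omega)).1
  -- horizontal
  have hH : ∀ (j : ℕ) (x : ℤ) (y : ℤ), dst z0 (x, y) ≤ n → (x - z0.1).natAbs = j →
      |t (x, y) - t (z0.1, y)| ≤ k * j := by
    intro j
    induction j with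
    | zero =>
      intro x y _ hx
      have : x = z0.1 := by omega
      subst this
      simp
    | succ j ih =>
      intro x y hd hx
      simp only [dst] at hd
      rcases lt_or_ge z0.1 x with h | h
      · have h1 := ih (x - 1) y (by simp only [dst]; omega) (by omega)
        have h2 := (hk (x - 1, y) (by simp only [dst]; omega)).1
        unfold D1 at h2
        simp only [sub_add_cancel] at h2
        have h3 := abs_sub_le (t (x, y)) (t (x - 1, y)) (t (z0.1, y))
        push_cast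
        linarith
      · have h1 := ih (x + 1) y (by simp only [dst]; omega) (by omega)
        have h2 := (hk (x, y) (by simp only [dst]; omega)).1
        unfold D1 at h2
        simp only at h2
        rw [abs_sub_comm] at h2
        have h3 := abs_sub_le (t (x, y)) (t (x + 1, y)) (t (z0.1, y))
        push_cast
        linarith
  have hV : ∀ (j : ℕ) (y : ℤ), dst z0 (z0.1, y) ≤ n → (y - z0.2).natAbs = j →
      |t (z0.1, y) - t z0| ≤ k * j := by
    intro j
    induction j with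
    | zero =>
      intro y _ hx
      have : y = z0.2 := by omega
      subst this
      simp
    | succ j ih =>
      intro y hd hx
      simp only [dst] at hd
      rcases lt_or_ge z0.2 y with h | h
      · have h1 := ih (y - 1) (by simp only [dst]; omega) (by omega)
        have h2 := (hk (z0.1, y - 1) (by simp only [dst]; omega)).2
        unfold D2 at h2
        simp only [sub_add_cancel] at h2
        have h3 := abs_sub_le (t (z0.1, y)) (t (z0.1, y - 1)) (t z0)
        push_cast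
        linarith
      · have h1 := ih (y + 1) (by simp only [dst]; omega) (by omega)
        have h2 := (hk (z0.1, y) (by simp only [dst]; omega)).2
        unfold D2 at h2
        simp only at h2
        rw [abs_sub_comm] at h2
        have h3 := abs_sub_le (t (z0.1, y)) (t (z0.1, y + 1)) (t z0)
        push_cast
        linarith
  rintro ⟨x, y⟩ hg
  have h1 := hH _ x y hg rfl
  have h2 := hV _ y (by simp only [dst] at hg ⊢; omega) rfl
  have h3 := abs_sub_le (t (x, y)) (t (z0.1, y)) (t z0)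
  have h4 : ((x - z0.1).natAbs : ℝ) ≤ dst z0 (x, y) := by
    have : (x - z0.1).natAbs ≤ dst z0 (x, y) := by simp only [dst]; omega
    exact_mod_cast this
  have h5 : ((y - z0.2).natAbs : ℝ) ≤ dst z0 (x, y) := by
    have : (y - z0.2).natAbs ≤ dst z0 (x, y) := by simp only [dst]; omega
    exact_mod_cast this
  have h6 := mul_le_mul_of_nonneg_left h4 hk0
  have h7 := mul_le_mul_of_nonneg_left h5 hk0
  linarith

/-- **Courant–Lebesgue, explicit form**: `s` small, `m` large -/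
theorem cl_explicit {M K : ℝ} {s : ℝ} (hs0 : 0 < s) (hs : s ≤ 1 / 16) {m : ℕ}
    (hm : 1 / s ^ 2 ≤ m) (hm' : 16 ≤ m) {Rg : Finset Z2} {v t : Z2 → ℝ}
    (hv : ∀ f, f ∉ Rg → v f = t f) (hH : ∀ f ∈ Rg, Hm v f) {z0 : Z2}
    (hring : ∀ n ≤ m / 4, ∃ g, g ∉ Rg ∧ dst z0 g = n) (ht : ∀ g, |t g| ≤ M)
    (hk : ∀ g, dst z0 g ≤ m / 4 → |D1 t g| ≤ K / m ∧ |D2 t g| ≤ K / m) :
    ∀ f, (dst z0 f : ℝ) ≤ s ^ 2 * m → |v f - t f| ≤
      4 * K * s + 2 * Real.sqrt (8 * (1200 * M ^ 2 + 300 * K ^ 2) / Real.log (1 / (2 * s))) := by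
  intro f hf
  have hm0 : (0 : ℝ) < m := by exact_mod_cast (by omega : 0 < m)
  have hs2 : 0 < s ^ 2 := by positivity
  have hsm : 1 ≤ s ^ 2 * m := by
    rw [div_le_iff₀ hs2] at hm
    linarith
  have hm256 : (256 : ℝ) ≤ m := by
    have h1 : s ^ 2 ≤ 1 / 256 := by nlinarith
    nlinarith
  have hK0 : 0 ≤ K := by
    have h1 := (abs_nonneg _).trans (hk z0 (by rw [dst_self]; omega)).1
    by_contra h
    push Not at h
    have := div_neg_of_neg_of_pos h hm0
    linarith
  have hM0 : 0 ≤ M := (abs_nonneg _).trans (ht z0)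
  obtain ⟨a, ha⟩ : ∃ a, a = ⌊s ^ 2 * m⌋₊ := ⟨_, rfl⟩
  obtain ⟨b, hb⟩ : ∃ b, b = ⌊s * m⌋₊ := ⟨_, rfl⟩
  have ha1 : (a : ℝ) ≤ s ^ 2 * m := by rw [ha]; exact Nat.floor_le (by positivity)
  have hb1 : (b : ℝ) ≤ s * m := by rw [hb]; exact Nat.floor_le (by positivity)
  have hb2 : s * m < b + 1 := by rw [hb]; exact Nat.lt_floor_add_one _
  have hfa : dst z0 f ≤ a := by rw [ha]; exact Nat.le_floor hf
  have hsm16 : 16 ≤ s * m := by nlinarith
  have hab : a < b := by
    have : (a : ℝ) < b := by nlinarith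
    exact_mod_cast this
  have hb16 : 16 * b ≤ m := by
    have : (16 * b : ℝ) ≤ m := by nlinarith
    exact_mod_cast this
  obtain ⟨n, hn⟩ : ∃ n, n = m / 8 := ⟨_, rfl⟩
  have hm256' : 256 ≤ m := by exact_mod_cast hm256
  have hbn : b ≤ n - 1 := by omega
  have hva := abs_le_of_bdry hv hH (fun g _ => ht g)
  have hcacc := cacc hv hH (z0 := z0) (n := n) (by omega) (M := 2 * M) (k := K / m)
    (fun g _ => by
      have h1 := hva g
      have h2 := ht g
      have h3 := abs_sub (v g) (t g)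
      linarith)
    (fun g hg => hk g (by omega))
  have hE : ∑ g ∈ bx z0 b, ed v g ≤ 1200 * M ^ 2 + 300 * K ^ 2 := by
    have h1 : ∑ g ∈ bx z0 b, ed v g ≤ ∑ g ∈ bx z0 (n - 1), ed v g := by
      refine Finset.sum_le_sum_of_subset_of_nonneg ?_ fun _ _ _ => ed_nonneg _ _
      intro g hg
      rw [mem_bx] at hg ⊢
      omega
    have h2 : (K / m * n) ^ 2 ≤ K ^ 2 := by
      have h3 : (n : ℝ) ≤ m := by exact_mod_cast (by omega : n ≤ m)
      have h4 : K / m * n ≤ K := by
        rw [div_mul_eq_mul_div, div_le_iff₀ hm0]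
        exact mul_le_mul_of_nonneg_left h3 hK0
      exact pow_le_pow_left₀ (by positivity) h4 2
    have h5 : 300 * (2 * M) ^ 2 = 1200 * M ^ 2 := by ring
    linarith
  have hinc := incr_le (t := t) (z0 := z0) (n := m / 4) (k := K / m) hk
  have hw : ∀ g, dst z0 g ≤ b → |t g - t z0| ≤ 2 * K * s := by
    intro g hg
    refine (hinc g (by omega)).trans ?_
    have h1 : (dst z0 g : ℝ) ≤ s * m := (by exact_mod_cast hg : (dst z0 g : ℝ) ≤ b).trans hb1
    calc 2 * (K / m) * (dst z0 g : ℝ) ≤ 2 * (K / m) * (s * m) :=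
          mul_le_mul_of_nonneg_left h1 (by positivity)
      _ = 2 * K * s := by field_simp
  have hcl := cl hv hH hab (fun n _ hn2 => hring n (by omega)) hw hE f hfa
  have htf : |t f - t z0| ≤ 2 * K * s := hw f (by omega)
  have hlog0 : 0 < Real.log (1 / (2 * s)) := by
    apply Real.log_pos
    rw [lt_div_iff₀ (by positivity)]
    linarith
  have hlog : Real.log (1 / (2 * s)) ≤ Real.log (((b : ℝ) + 1) / (a + 1)) := by
    apply Real.log_le_log (by positivity)
    rw [div_le_div_iff₀ (by positivity) (by positivity)]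
    have h1 : (a : ℝ) + 1 ≤ 2 * (s ^ 2 * m) := by linarith
    nlinarith
  have hsq : Real.sqrt (8 * (1200 * M ^ 2 + 300 * K ^ 2) / Real.log (((b : ℝ) + 1) / (a + 1))) ≤
      Real.sqrt (8 * (1200 * M ^ 2 + 300 * K ^ 2) / Real.log (1 / (2 * s))) := by
    apply Real.sqrt_le_sqrt
    exact div_le_div_of_nonneg_left (by positivity) hlog0 hlog
  have h3 := abs_sub_le (v f) (t z0) (t f)
  rw [abs_sub_comm (t z0) (t f)] at h3
  linarith

/-- **S.CL**: the boundary values are taken uniformly -/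
theorem cl_pack (M K ε : ℝ) (hε : 0 < ε) : ∃ δ : ℝ, 0 < δ ∧ ∃ m0 : ℕ, ∀ m ≥ m0,
    ∀ (Rg : Finset Z2) (v t : Z2 → ℝ), (∀ f, f ∉ Rg → v f = t f) → (∀ f ∈ Rg, Hm v f) →
    ∀ z0 : Z2, (∀ n ≤ m / 4, ∃ g, g ∉ Rg ∧ dst z0 g = n) → (∀ g, |t g| ≤ M) →
    (∀ g, dst z0 g ≤ m / 4 → |D1 t g| ≤ K / m ∧ |D2 t g| ≤ K / m) →
    ∀ f, (dst z0 f : ℝ) ≤ δ * m → |v f - t f| ≤ ε := by
  have hlim : Tendsto (fun s : ℝ => 4 * K * s + 2 * Real.sqrt (8 * (1200 * M ^ 2 + 300 * K ^ 2) /
      Real.log (1 / (2 * s)))) (𝓝[>] 0) (𝓝 0) := by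
    have h1 : Tendsto (fun s : ℝ => 4 * K * s) (𝓝[>] 0) (𝓝 0) := by
      have : Tendsto (fun s : ℝ => 4 * K * s) (𝓝 0) (𝓝 (4 * K * 0)) :=
        (continuous_const.mul continuous_id).tendsto 0
      rw [mul_zero] at this
      exact this.mono_left nhdsWithin_le_nhds
    have h2 : Tendsto (fun s : ℝ => 1 / (2 * s)) (𝓝[>] 0) atTop := by
      have : Tendsto (fun s : ℝ => (1 / 2) * s⁻¹) (𝓝[>] 0) atTop :=
        tendsto_inv_nhdsGT_zero.const_mul_atTop (by norm_num)
      refine this.congr fun s => ?_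
      rw [one_div, one_div, mul_inv]
    have h3 := Real.tendsto_log_atTop.comp h2
    have h4 : Tendsto (fun s : ℝ => 8 * (1200 * M ^ 2 + 300 * K ^ 2) /
        Real.log (1 / (2 * s))) (𝓝[>] 0) (𝓝 0) := h3.const_div_atTop _
    have h5 := (Real.continuous_sqrt.tendsto 0).comp h4
    rw [Real.sqrt_zero] at h5
    have h6 := h1.add (h5.const_mul 2)
    simpa using h6
  have hev := (hlim.eventually (gt_mem_nhds hε)).and
    (Ioc_mem_nhdsGT (show (0 : ℝ) < 1 / 16 by norm_num))
  obtain ⟨s, hs1, hs2, hs3⟩ := hev.exists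
  refine ⟨s ^ 2, by positivity, max 16 ⌈1 / s ^ 2⌉₊, fun m hm Rg v t hv hH z0 hring ht hk f hf => ?_⟩
  have h16 : 16 ≤ m := (le_max_left _ _).trans hm
  have hm2 : 1 / s ^ 2 ≤ m := by
    have h1 : ⌈1 / s ^ 2⌉₊ ≤ m := (le_max_right _ _).trans hm
    exact (Nat.le_ceil _).trans (by exact_mod_cast h1)
  exact (cl_explicit hs2 hs3 hm2 h16 hv hH hring ht hk f hf).trans hs1.le

end Vale.Agent.P159.T1.S.H634
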