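import Vale.Agent.P159.T1.S.H634.CL

/-!
Caccioppoli inequality with boundary values, and the packaged form of the Courant–Lebesgue row.
-/

open Filter Topology

namespace Vale.Agent.P159.T1.S.H634

open Vale.Agent.P159.T1.D

/-! ### Green identity -/

/-- translation by `(1, 0)` and `(0, 1)` -/
def eR : Z2 ≃ Z2 := Equiv.addRight (1, 0)

def eU : Z2 ≃ Z2 := Equiv.addRight (0, 1)

theorem eR_apply (g : Z2) : eR g = (g.1 + 1, g.2) := by
  simp only [eR, Equiv.coe_addRight]; ext <;> simp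

theorem eU_apply (g : Z2) : eU g = (g.1, g.2 + 1) := by
  simp only [eU, Equiv.coe_addRight]; ext <;> simp

theorem eR_symm (g : Z2) : eR.symm g = (g.1 - 1, g.2) := by
  rw [Equiv.symm_apply_eq, eR_apply]; ext <;> simp

theorem eU_symm (g : Z2) : eU.symm g = (g.1, g.2 - 1) := by
  rw [Equiv.symm_apply_eq, eU_apply]; ext <;> simp

/-- finitely supported functions are summable -/
theorem sm {F : Z2 → ℝ} (S : Finset Z2) (h : ∀ g, g ∉ S → F g = 0) : Summable F :=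
  summable_of_ne_finset_zero h

theorem tsum_shift (e : Z2 ≃ Z2) (F : Z2 → ℝ) : ∑' g, F (e g) = ∑' g, F g := e.tsum_eq F

/-- **Green identity** for a test function with finite support -/
theorem green {v ψ : Z2 → ℝ} {S : Finset Z2} (hψ : ∀ g, g ∉ S → ψ g = 0)
    (hH : ∀ g ∈ S, ψ g ≠ 0 → Hm v g) : ∑' g, (D1 v g * D1 ψ g + D2 v g * D2 ψ g) = 0 := by
  classical
  -- the four pieces
  have s1 : Summable fun g => D1 v g * ψ g := sm S fun g hg => by rw [hψ g hg, mul_zero]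
  have s2 : Summable fun g => D2 v g * ψ g := sm S fun g hg => by rw [hψ g hg, mul_zero]
  have s3' : Summable fun g => D1 v (eR.symm g) * ψ g :=
    sm S fun g hg => by rw [hψ g hg, mul_zero]
  have s4' : Summable fun g => D2 v (eU.symm g) * ψ g :=
    sm S fun g hg => by rw [hψ g hg, mul_zero]
  have s3 : Summable fun g => D1 v g * ψ (eR g) := by
    have := (eR.summable_iff (f := fun g => D1 v (eR.symm g) * ψ g)).2 s3'
    simpa [Function.comp_def] using this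
  have s4 : Summable fun g => D2 v g * ψ (eU g) := by
    have := (eU.summable_iff (f := fun g => D2 v (eU.symm g) * ψ g)).2 s4'
    simpa [Function.comp_def] using this
  have e3 : ∑' g, D1 v g * ψ (eR g) = ∑' g, D1 v (eR.symm g) * ψ g := by
    rw [← tsum_shift eR (fun g => D1 v (eR.symm g) * ψ g)]
    simp
  have e4 : ∑' g, D2 v g * ψ (eU g) = ∑' g, D2 v (eU.symm g) * ψ g := by
    rw [← tsum_shift eU (fun g => D2 v (eU.symm g) * ψ g)]
    simp
  have e0 : ∀ g, D1 v g * D1 ψ g + D2 v g * D2 ψ g =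
      (D1 v g * ψ (eR g) - D1 v g * ψ g) + (D2 v g * ψ (eU g) - D2 v g * ψ g) := by
    intro g
    rw [eR_apply, eU_apply]
    unfold D1 D2
    ring
  simp_rw [e0]
  rw [(s3.sub s1).tsum_add (s4.sub s2), s3.tsum_sub s1, s4.tsum_sub s2, e3, e4,
    ← s3'.tsum_sub s1, ← s4'.tsum_sub s2, ← (s3'.sub s1).tsum_add (s4'.sub s2)]
  rw [← tsum_zero (α := ℝ) (β := Z2)]
  refine tsum_congr fun g => ?_
  by_cases hg : ψ g = 0
  · rw [hg]; ring
  · have hgS : g ∈ S := by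
      by_contra h
      exact hg (hψ g h)
    have h := hH g hgS hg
    unfold Hm at h
    rw [eR_symm, eU_symm]
    unfold D1 D2
    simp only [sub_add_cancel]
    linear_combination ψ g * h

/-! ### the cut-off -/

/-- the cut-off: `1` at distance `≤ n`, `0` at distance `≥ 2 n` -/
noncomputable def chi (z0 : Z2) (n : ℕ) (g : Z2) : ℝ := max 0 (min 1 (2 - (dst z0 g : ℝ) / n))

theorem chi_nonneg (z0 : Z2) (n : ℕ) (g : Z2) : 0 ≤ chi z0 n g := le_max_left _ _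

theorem chi_le_one (z0 : Z2) (n : ℕ) (g : Z2) : chi z0 n g ≤ 1 :=
  max_le zero_le_one (min_le_left _ _)

theorem chi_one {z0 : Z2} {n : ℕ} (hn : 1 ≤ n) {g : Z2} (h : dst z0 g ≤ n) : chi z0 n g = 1 := by
  have hn0 : (0 : ℝ) < n := by exact_mod_cast hn
  have h1 : (dst z0 g : ℝ) / n ≤ 1 := by
    rw [div_le_one hn0]; exact_mod_cast h
  unfold chi
  rw [min_eq_left (by linarith), max_eq_right zero_le_one]

theorem chi_zero {z0 : Z2} {n : ℕ} (hn : 1 ≤ n) {g : Z2} (h : 2 * n ≤ dst z0 g) :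
    chi z0 n g = 0 := by
  have hn0 : (0 : ℝ) < n := by exact_mod_cast hn
  have h1 : 2 ≤ (dst z0 g : ℝ) / n := by
    rw [le_div_iff₀ hn0]; exact_mod_cast h
  unfold chi
  exact max_eq_left ((min_le_right _ _).trans (by linarith))

theorem chi_lip {z0 : Z2} {n : ℕ} (hn : 1 ≤ n) {g g' : Z2} (h1 : dst z0 g' ≤ dst z0 g + 1)
    (h2 : dst z0 g ≤ dst z0 g' + 1) : (chi z0 n g' - chi z0 n g) ^ 2 ≤ 1 / (n : ℝ) ^ 2 := by
  have hn0 : (0 : ℝ) < n := by exact_mod_cast hn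
  have h3 : |chi z0 n g' - chi z0 n g| ≤ 1 / n := by
    unfold chi
    have a1 := abs_max_sub_max_le_abs (min 1 (2 - (dst z0 g' : ℝ) / n))
      (min 1 (2 - (dst z0 g : ℝ) / n)) 0
    rw [max_comm _ (0 : ℝ), max_comm _ (0 : ℝ)] at a1
    refine a1.trans ?_
    have a2 := abs_min_sub_min_le_max 1 (2 - (dst z0 g' : ℝ) / n) 1 (2 - (dst z0 g : ℝ) / n)
    refine a2.trans ?_
    rw [sub_self, abs_zero]
    refine max_le (by positivity) ?_
    have e : 2 - (dst z0 g' : ℝ) / n - (2 - (dst z0 g : ℝ) / n) =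
        ((dst z0 g : ℝ) - dst z0 g') / n := by ring
    rw [e, abs_div, abs_of_pos hn0]
    refine div_le_div_of_nonneg_right ?_ hn0.le
    have b1 : (dst z0 g' : ℝ) ≤ dst z0 g + 1 := by exact_mod_cast h1
    have b2 : (dst z0 g : ℝ) ≤ dst z0 g' + 1 := by exact_mod_cast h2
    rw [abs_le]
    constructor <;> linarith
  have h4 : (chi z0 n g' - chi z0 n g) ^ 2 = |chi z0 n g' - chi z0 n g| ^ 2 := (sq_abs _).symm
  rw [h4]
  calc |chi z0 n g' - chi z0 n g| ^ 2 ≤ (1 / (n : ℝ)) ^ 2 :=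
        pow_le_pow_left₀ (abs_nonneg _) h3 2
    _ = 1 / (n : ℝ) ^ 2 := by rw [div_pow, one_pow]

/-- the pointwise inequality -/
theorem pt_ineq {u u' χ χ' T M : ℝ} (hu : |u| ≤ M) (hu' : |u'| ≤ M) :
    (χ' * u' - χ * u) ^ 2 / 2 ≤ (u' - u + T) * (χ' ^ 2 * u' - χ ^ 2 * u) +
      3 / 2 * M ^ 2 * (χ' - χ) ^ 2 + 1 / 2 * T ^ 2 * (χ' ^ 2 + χ ^ 2) := by
  have hM : 0 ≤ M := (abs_nonneg _).trans hu
  have e1 : (u' - u) * (χ' ^ 2 * u' - χ ^ 2 * u) =
      (χ' * u' - χ * u) ^ 2 - u * u' * (χ' - χ) ^ 2 := by ring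
  have e2 : T * (χ' ^ 2 * u' - χ ^ 2 * u) =
      T * χ' * (χ' * u' - χ * u) + T * (χ * u) * (χ' - χ) := by ring
  have a1 : u * u' ≤ M ^ 2 := by
    calc u * u' ≤ |u * u'| := le_abs_self _
      _ = |u| * |u'| := abs_mul _ _
      _ ≤ M * M := mul_le_mul hu hu' (abs_nonneg _) hM
      _ = M ^ 2 := by ring
  have a2 : u ^ 2 ≤ M ^ 2 := by
    rw [← sq_abs u]; exact pow_le_pow_left₀ (abs_nonneg _) hu 2
  have a3 : u * u' * (χ' - χ) ^ 2 ≤ M ^ 2 * (χ' - χ) ^ 2 :=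
    mul_le_mul_of_nonneg_right a1 (sq_nonneg _)
  have a4 : -(T * χ' * (χ' * u' - χ * u)) ≤ (χ' * u' - χ * u) ^ 2 / 2 + (T * χ') ^ 2 / 2 := by
    nlinarith [sq_nonneg (T * χ' + (χ' * u' - χ * u))]
  have a5 : -(T * (χ * u) * (χ' - χ)) ≤ (T * χ) ^ 2 / 2 + (u * (χ' - χ)) ^ 2 / 2 := by
    nlinarith [sq_nonneg (T * χ + u * (χ' - χ))]
  have a6 : (u * (χ' - χ)) ^ 2 ≤ M ^ 2 * (χ' - χ) ^ 2 := by
    rw [mul_pow]; exact mul_le_mul_of_nonneg_right a2 (sq_nonneg _)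
  have e3 : (u' - u + T) * (χ' ^ 2 * u' - χ ^ 2 * u) =
      (u' - u) * (χ' ^ 2 * u' - χ ^ 2 * u) + T * (χ' ^ 2 * u' - χ ^ 2 * u) := by ring
  rw [e3, e1, e2]
  nlinarith

/-! ### Caccioppoli -/

theorem dst_right (z0 g : Z2) : dst z0 (g.1 + 1, g.2) ≤ dst z0 g + 1 ∧
    dst z0 g ≤ dst z0 (g.1 + 1, g.2) + 1 := by
  simp only [dst]; omega

theorem dst_up (z0 g : Z2) : dst z0 (g.1, g.2 + 1) ≤ dst z0 g + 1 ∧
    dst z0 g ≤ dst z0 (g.1, g.2 + 1) + 1 := by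
  simp only [dst]; omega

theorem card_bx (z0 : Z2) (n : ℕ) : ((bx z0 n).card : ℝ) = (2 * n + 1) ^ 2 := by
  rw [bx, Finset.card_product, Int.card_Icc, Int.card_Icc]
  have e1 : (z0.1 + n + 1 - (z0.1 - n)).toNat = 2 * n + 1 := by omega
  have e2 : (z0.2 + n + 1 - (z0.2 - n)).toNat = 2 * n + 1 := by omega
  rw [e1, e2]
  push_cast
  ring

/-- **Caccioppoli inequality** with boundary values `t` -/
theorem cacc {Rg : Finset Z2} {v t : Z2 → ℝ} (hv : ∀ f, f ∉ Rg → v f = t f)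
    (hH : ∀ f ∈ Rg, Hm v f) {z0 : Z2} {n : ℕ} (hn : 1 ≤ n) {M k : ℝ}
    (hM : ∀ g, dst z0 g ≤ 2 * n + 1 → |v g - t g| ≤ M)
    (hk : ∀ g, dst z0 g ≤ 2 * n → |D1 t g| ≤ k ∧ |D2 t g| ≤ k) :
    ∑ g ∈ bx z0 (n - 1), ed v g ≤ 300 * M ^ 2 + 300 * (k * n) ^ 2 := by
  classical
  have hn0 : (0 : ℝ) < n := by exact_mod_cast hn
  have hn1 : (1 : ℝ) ≤ n := by exact_mod_cast hn
  have hk0 : 0 ≤ k := (abs_nonneg _).trans (hk z0 (by rw [dst_self]; omega)).1
  have hM0 : 0 ≤ M := (abs_nonneg _).trans (hM z0 (by rw [dst_self]; omega))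
  set u : Z2 → ℝ := fun g => v g - t g with hu
  set χ := chi z0 n with hχ
  set ψ : Z2 → ℝ := fun g => χ g ^ 2 * u g with hψdef
  set W := bx z0 (2 * n) with hW
  -- truncated u, so that the bound holds everywhere
  have hχ0 : ∀ g, 2 * n ≤ dst z0 g → χ g = 0 := fun g hg => chi_zero hn hg
  have hgreen : ∑' g, (D1 v g * D1 ψ g + D2 v g * D2 ψ g) = 0 := by
    refine green (S := W) (fun g hg => ?_) fun g _ hg => ?_
    · rw [hW, mem_bx] at hg
      simp only [hψdef]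
      rw [hχ0 g (by omega)]
      ring
    · by_cases hgR : g ∈ Rg
      · exact hH g hgR
      · exfalso
        apply hg
        simp only [hψdef, hu]
        rw [hv g hgR]
        ring
  -- the sum is over the box
  have hzero : ∀ g, g ∉ W → D1 v g * D1 ψ g + D2 v g * D2 ψ g = 0 := by
    intro g hg
    rw [hW, mem_bx] at hg
    have h1 := (dst_right z0 g).2
    have h2 := (dst_up z0 g).2
    have e1 : ψ g = 0 := by
      simp only [hψdef]; rw [hχ0 g (by omega)]; ring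
    have e2 : ψ (g.1 + 1, g.2) = 0 := by
      simp only [hψdef]; rw [hχ0 _ (by omega)]; ring
    have e3 : ψ (g.1, g.2 + 1) = 0 := by
      simp only [hψdef]; rw [hχ0 _ (by omega)]; ring
    simp only [D1, D2, e1, e2, e3]
    ring
  rw [tsum_eq_sum (s := W) hzero] at hgreen
  -- pointwise
  have hpt : ∀ g ∈ W, (D1 (fun g => χ g * u g) g ^ 2 + D2 (fun g => χ g * u g) g ^ 2) / 2 ≤
      (D1 v g * D1 ψ g + D2 v g * D2 ψ g) + 3 * M ^ 2 * (1 / (n : ℝ) ^ 2) + 2 * k ^ 2 := by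
    intro g hg
    rw [hW, mem_bx] at hg
    have h1 := dst_right z0 g
    have h2 := dst_up z0 g
    have b0 : |u g| ≤ M := hM g (by omega)
    have b1 : |u (g.1 + 1, g.2)| ≤ M := hM _ (by omega)
    have b2 : |u (g.1, g.2 + 1)| ≤ M := hM _ (by omega)
    have p1 := pt_ineq (χ := χ g) (χ' := χ (g.1 + 1, g.2)) (T := D1 t g) b0 b1
    have p2 := pt_ineq (χ := χ g) (χ' := χ (g.1, g.2 + 1)) (T := D2 t g) b0 b2
    have c1 := chi_lip hn h1.1 h1.2
    have c2 := chi_lip hn h2.1 h2.2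
    have d1 : D1 t g ^ 2 ≤ k ^ 2 := by
      rw [← sq_abs]; exact pow_le_pow_left₀ (abs_nonneg _) (hk g hg).1 2
    have d2 : D2 t g ^ 2 ≤ k ^ 2 := by
      rw [← sq_abs]; exact pow_le_pow_left₀ (abs_nonneg _) (hk g hg).2 2
    have q : ∀ g', χ g' ^ 2 ≤ 1 := fun g' => by
      have := chi_nonneg z0 n g'
      have h' := chi_le_one z0 n g'
      rw [← hχ] at this h'
      nlinarith
    have f1 : D1 t g ^ 2 * (χ (g.1 + 1, g.2) ^ 2 + χ g ^ 2) ≤ k ^ 2 * 2 :=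
      mul_le_mul d1 (by linarith [q (g.1 + 1, g.2), q g]) (by positivity) (by positivity)
    have f2 : D2 t g ^ 2 * (χ (g.1, g.2 + 1) ^ 2 + χ g ^ 2) ≤ k ^ 2 * 2 :=
      mul_le_mul d2 (by linarith [q (g.1, g.2 + 1), q g]) (by positivity) (by positivity)
    have g1 := mul_le_mul_of_nonneg_left c1 (show 0 ≤ 3 / 2 * M ^ 2 by positivity)
    have g2 := mul_le_mul_of_nonneg_left c2 (show 0 ≤ 3 / 2 * M ^ 2 by positivity)
    have e1 : D1 v g * D1 ψ g = (u (g.1 + 1, g.2) - u g + D1 t g) *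
        (χ (g.1 + 1, g.2) ^ 2 * u (g.1 + 1, g.2) - χ g ^ 2 * u g) := by
      simp only [hψdef, hu, D1]; ring
    have e2 : D2 v g * D2 ψ g = (u (g.1, g.2 + 1) - u g + D2 t g) *
        (χ (g.1, g.2 + 1) ^ 2 * u (g.1, g.2 + 1) - χ g ^ 2 * u g) := by
      simp only [hψdef, hu, D2]; ring
    rw [e1, e2]
    have i1 : D1 (fun g => χ g * u g) g =
      χ (g.1 + 1, g.2) * u (g.1 + 1, g.2) - χ g * u g := rfl
    have i2 : D2 (fun g => χ g * u g) g =
      χ (g.1, g.2 + 1) * u (g.1, g.2 + 1) - χ g * u g := rfl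
    rw [i1, i2]
    rw [← hχ] at c1 c2 g1 g2
    linarith
  have hsum := Finset.sum_le_sum hpt
  rw [Finset.sum_add_distrib, Finset.sum_add_distrib, hgreen, Finset.sum_const,
    Finset.sum_const, nsmul_eq_mul, nsmul_eq_mul, ← Finset.sum_div, hW, card_bx, zero_add] at hsum
  push_cast at hsum
  -- restrict to the small box
  have hsub : ∑ g ∈ bx z0 (n - 1), ed u g ≤
      ∑ g ∈ bx z0 (2 * n), (D1 (fun g => χ g * u g) g ^ 2 + D2 (fun g => χ g * u g) g ^ 2) := by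
    have h1 : ∑ g ∈ bx z0 (n - 1), ed u g = ∑ g ∈ bx z0 (n - 1),
        (D1 (fun g => χ g * u g) g ^ 2 + D2 (fun g => χ g * u g) g ^ 2) := by
      refine Finset.sum_congr rfl fun g hg => ?_
      rw [mem_bx] at hg
      have h1 := (dst_right z0 g).1
      have h2 := (dst_up z0 g).1
      simp only [ed, D1, D2, hχ]
      rw [chi_one hn (by omega : dst z0 g ≤ n), chi_one hn (by omega),
        chi_one hn (by omega)]
      ring
    rw [h1]
    refine Finset.sum_le_sum_of_subset_of_nonneg ?_ fun _ _ _ => by positivity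
    intro g hg
    rw [mem_bx] at hg ⊢
    omega
  have ht : ∑ g ∈ bx z0 (n - 1), ed t g ≤ (2 * n + 1) ^ 2 * (2 * k ^ 2) := by
    have h1 : ∑ g ∈ bx z0 (n - 1), ed t g ≤ ∑ g ∈ bx z0 n, ed t g := by
      refine Finset.sum_le_sum_of_subset_of_nonneg ?_ fun _ _ _ => ed_nonneg _ _
      intro g hg
      rw [mem_bx] at hg ⊢
      omega
    refine h1.trans ?_
    have h2 : ∑ g ∈ bx z0 n, ed t g ≤ ∑ g ∈ bx z0 n, 2 * k ^ 2 := by
      refine Finset.sum_le_sum fun g hg => ?_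
      rw [mem_bx] at hg
      have h3 := hk g (by omega)
      have d1 : D1 t g ^ 2 ≤ k ^ 2 := by
        rw [← sq_abs]; exact pow_le_pow_left₀ (abs_nonneg _) h3.1 2
      have d2 : D2 t g ^ 2 ≤ k ^ 2 := by
        rw [← sq_abs]; exact pow_le_pow_left₀ (abs_nonneg _) h3.2 2
      unfold ed
      linarith
    rw [Finset.sum_const, nsmul_eq_mul, card_bx] at h2
    exact h2
  have hvu : ∀ g, ed v g ≤ 2 * ed u g + 2 * ed t g := by
    intro g
    have e1 : D1 v g = D1 u g + D1 t g := by simp only [hu, D1]; ring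
    have e2 : D2 v g = D2 u g + D2 t g := by simp only [hu, D2]; ring
    unfold ed
    rw [e1, e2]
    nlinarith [sq_nonneg (D1 u g - D1 t g), sq_nonneg (D2 u g - D2 t g)]
  have hfin : ∑ g ∈ bx z0 (n - 1), ed v g ≤
      2 * (∑ g ∈ bx z0 (n - 1), ed u g) + 2 * ∑ g ∈ bx z0 (n - 1), ed t g := by
    rw [Finset.mul_sum, Finset.mul_sum, ← Finset.sum_add_distrib]
    exact Finset.sum_le_sum fun g _ => hvu g
  have hA : (2 * (2 * (n : ℝ)) + 1) ^ 2 ≤ 25 * n ^ 2 := by nlinarith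
  have hB : (2 * (n : ℝ) + 1) ^ 2 ≤ 9 * n ^ 2 := by nlinarith
  have hC : (2 * (2 * (n : ℝ)) + 1) ^ 2 * (3 * M ^ 2 * (1 / (n : ℝ) ^ 2)) ≤ 75 * M ^ 2 := by
    calc (2 * (2 * (n : ℝ)) + 1) ^ 2 * (3 * M ^ 2 * (1 / (n : ℝ) ^ 2)) ≤
        25 * n ^ 2 * (3 * M ^ 2 * (1 / (n : ℝ) ^ 2)) :=
          mul_le_mul_of_nonneg_right hA (by positivity)
      _ = 75 * M ^ 2 := by field_simp; ring
  have hD : (2 * (2 * (n : ℝ)) + 1) ^ 2 * (2 * k ^ 2) ≤ 50 * (k * n) ^ 2 := by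
    calc (2 * (2 * (n : ℝ)) + 1) ^ 2 * (2 * k ^ 2) ≤ 25 * n ^ 2 * (2 * k ^ 2) :=
          mul_le_mul_of_nonneg_right hA (by positivity)
      _ = 50 * (k * n) ^ 2 := by ring
  have hE : (2 * (n : ℝ) + 1) ^ 2 * (2 * k ^ 2) ≤ 18 * (k * n) ^ 2 := by
    calc (2 * (n : ℝ) + 1) ^ 2 * (2 * k ^ 2) ≤ 9 * n ^ 2 * (2 * k ^ 2) :=
          mul_le_mul_of_nonneg_right hB (by positivity)
      _ = 18 * (k * n) ^ 2 := by ring
  have hkn : 0 ≤ (k * n) ^ 2 := sq_nonneg _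
  linarith

end Vale.Agent.P159.T1.S.H634
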